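import Vale.Agent.P218.H63.X9
import Vale.Agent.P218.H333.SG.Stat

/-! The interface `Inp` of the static estimates holds for second-order data, equivariant
version. -/

open MeasureTheory Set Filter Topology Metric
open scoped ENNReal NNReal RealInnerProductSpace

namespace Vale.Agent.P218.SG

open Vale.Agent.P218.H313
open Vale.Agent.P218.H588 (Phi lc Tri cont_sum pb_sum)
open Vale.Agent.P218.X8
open Vale.Agent.P218.H923 (BU)
open Vale.Agent.P218.H333 (LimPr)

set_option linter.unusedSectionVars false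
set_option linter.unusedVariables false

variable {E : Type*} [NormedAddCommGroup E] [InnerProductSpace ℝ E] [FiniteDimensional ℝ E]
  [MeasurableSpace E] [BorelSpace E]

/-- **the weak limit is a Jacobi field** -/
theorem exists_lim_pr {ι : Type*} {m : ℕ} {U : Ultrafilter ι} {N : ι → Measure E}
    {T : ι → E → Submodule ℝ E} {H : ι → E → E} {κ : Measure E} {W : E → ℝ} {Wi : ι → E → ℝ}
    {c K : ℝ} (h : BU U m N T H κ W Wi c K) {Pr : (E → ℝ) → Prop} (hPr : LimPr U N κ Wi Pr)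
    (hE : Module.finrank ℝ E = m + 1) {V : Set (E → ℝ)}
    (hVc : ∀ v ∈ V, Continuous v ∧ PB v)
    (hnd : ∀ u : E → ℝ, AEStronglyMeasurable u κ → Integrable (fun x => u x ^ 2 * rho x) κ →
      (∀ ζ : E → ℝ, ContDiff ℝ (⊤ : ℕ∞) ζ → HasCompactSupport ζ →
        ∫ x, u x * jac W ζ x * rho x ∂κ = 0) → Pr u → ∃ v ∈ V, u =ᵐ[κ] v) :
    ∃ v ∈ V, ∀ f : E → ℝ, Continuous f → PB f →
      Tendsto (fun i => ∫ x, nh (N i) (Wi i) x * f x * rho x ∂(N i)) U
        (𝓝 (∫ x, v x * f x * rho x ∂κ)) := by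
  have := h.conv.lf
  have hc := h.tube.cpos
  have hK := h.tube.K_nonneg
  have hwc : ∀ᶠ i in (U : Filter ι), Continuous (nh (N i) (Wi i)) ∧ PB (nh (N i) (Wi i)) := by
    filter_upwards [h.tubei] with i hi using ⟨nh_cont hi, nh_pb hi⟩
  obtain ⟨u, hum, hu2, hu⟩ := h.conv.exists_weak_lim (w := fun i => nh (N i) (Wi i)) hwc
    (h.pos.mono fun i hi => (nh_norm hi).le)
  obtain ⟨M, hM⟩ := h.conv.mom 0
  have hM' : ∀ᶠ i in (U : Filter ι), ∫ x, rho x ∂(N i) ≤ M := by
    filter_upwards [hM] with i hi; simpa using hi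
  have hsD : Tendsto (fun i => √(DD (N i) (Wi i) 0)) U (𝓝 0) := by
    have := h.dd.sqrt; rwa [Real.sqrt_zero] at this
  have hsdis : Tendsto (fun i => √(dis (N i) (T i) (H i) / DD (N i) (Wi i) 0)) U (𝓝 0) := by
    have := h.dz.sqrt; rwa [Real.sqrt_zero] at this
  have claimA : ∀ ζ : E → ℝ, ContDiff ℝ (⊤ : ℕ∞) ζ → HasCompactSupport ζ →
      ∫ x, u x * jac W ζ x * rho x ∂κ = 0 := by
    intro ζ hζ hζc
    have hζ2 : ContDiff ℝ 2 ζ := hζ.of_le (by norm_cast)
    have hjc := continuous_jac h.tube hζ2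
    have hjs : HasCompactSupport (jac W ζ) := hasCompactSupport_jac hζc
    have hjpb : PB (jac W ζ) := PB.of_compact hjc hjs
    obtain ⟨-, hlim⟩ := hu (jac W ζ) hjc hjpb
    obtain ⟨C, hC, hest⟩ := exists_jac_est (E := E) hE hc hK hζ2 hζc
    have a2 : Tendsto (fun i => C * (√(DD (N i) (Wi i) 0)
        + dis (N i) (T i) (H i) / DD (N i) (Wi i) 0 * √(DD (N i) (Wi i) 0)
          + √M * √(dis (N i) (T i) (H i) / DD (N i) (Wi i) 0))) U (𝓝 0) := by
      have := ((hsD.add (h.dz.mul hsD)).add (hsdis.const_mul √M)).const_mul C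
      simpa using this
    have a3 : Tendsto (fun i => ∫ x, nh (N i) (Wi i) x * jac (Wi i) ζ x * rho x ∂(N i)) U
        (𝓝 0) := by
      refine squeeze_zero_norm' ?_ a2
      filter_upwards [h.tubei, h.conv.sl, h.pos, hM'] with i hi hs hp hm'
      exact nh_jac hs hp hC (hest (Wi i) hi (N i) (T i) (H i) hs) hm'
    have a4 : Tendsto (fun i => ∫ x, nh (N i) (Wi i) x * jac W ζ x * rho x ∂(N i)
        - ∫ x, nh (N i) (Wi i) x * jac (Wi i) ζ x * rho x ∂(N i)) U (𝓝 0) := by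
      rw [Metric.tendsto_nhds]
      intro ε hε
      have hε' : 0 < ε / (2 * (√M + 1)) := by positivity
      filter_upwards [h.toBU0.jac_loc hζ2 hζc _ hε', h.tubei, h.conv.sl, h.pos, hM'] with
        i h1 hi hs hp h3
      rw [dist_zero_right, Real.norm_eq_abs]
      refine (nh_diff hs hi hp h3 hjc hjpb (continuous_jac hi hζ2)
        (PB.of_compact (continuous_jac hi hζ2) (hasCompactSupport_jac hζc)) h1 hε'.le).trans_lt ?_
      have e5 : 0 ≤ √M := Real.sqrt_nonneg _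
      rw [div_mul_eq_mul_div, div_lt_iff₀ (by positivity)]
      nlinarith
    have a5 := a4.add a3
    have h1 : Tendsto (fun i => ∫ x, nh (N i) (Wi i) x * jac W ζ x * rho x ∂(N i)) U (𝓝 0) := by
      simpa using a5
    have h2 := tendsto_nhds_unique h1 hlim
    rw [h2]
    congr 1; ext x; ring
  obtain ⟨v, hvV, huv⟩ := hnd u hum hu2 claimA (hPr u hum hu2 hu)
  refine ⟨v, hvV, fun f hf hfb => ?_⟩
  obtain ⟨-, h1⟩ := hu f hf hfb
  have e : ∫ x, f x * u x * rho x ∂κ = ∫ x, v x * f x * rho x ∂κ := by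
    apply integral_congr_ae
    filter_upwards [huv] with x hx
    rw [hx]; ring
  rwa [e] at h1

variable {m k l q : ℕ} {c K : ℝ} {κ : Measure E} {W : E → ℝ} {ζ : Fin k → E → ℝ}
  {η : Fin l → E → ℝ} {Pr : (E → ℝ) → Prop}

lemma j3_of_sod (hD : SOD m κ W c K q ζ η Pr) (i : Fin k) : J3 W (ζ i) c where
  cd := hD.cd i
  b0 := hD.pbζ i
  b1 := PB.of_le (C := K) (p := q) (hD.b1 i)
  b2 := PB.of_le (C := K) (p := q) (hD.b2 i)
  b3 := hD.b3 i
  nrm := hD.perp i
  jac0 := hD.jac0 i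

/-- uniform constants for the basis -/
lemma exists_unif (hD : SOD m κ W c K q ζ η Pr) :
    ∃ (K' : ℝ) (q' : ℕ), K ≤ K' ∧ Tube3 W c K' ∧ ∀ i, JF W (ζ i) c K' q' := by
  have h : ∀ i, ∃ (K' : ℝ) (q' : ℕ), ∀ K'' q'', K' ≤ K'' → q' ≤ q'' → JF W (ζ i) c K'' q'' :=
    fun i => (j3_of_sod hD i).exists_JF hD.tube hD.W3 hD.Wb3
  choose K₁ q₁ h1 using h
  have hn : 0 ≤ (Module.finrank ℝ E : ℝ) := Nat.cast_nonneg _
  have h4 : 0 ≤ 3 * (Module.finrank ℝ E : ℝ) * K ^ 4 := by positivity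
  have hK := hD.tube.K_nonneg
  have hs : 0 ≤ ∑ i, |K₁ i| := Finset.sum_nonneg fun i _ => abs_nonneg _
  refine ⟨K + 3 * Module.finrank ℝ E * K ^ 4 + ∑ i, |K₁ i|, ∑ i, q₁ i, by linarith,
    hD.tube.tube3 hD.W3 (by linarith) (by linarith), fun i => h1 i _ _ ?_ ?_⟩
  · have := Finset.single_le_sum (f := fun i => |K₁ i|) (fun i _ => abs_nonneg _)
      (Finset.mem_univ i)
    have h5 := le_abs_self (K₁ i)
    linarith
  · exact Finset.single_le_sum (f := fun i => q₁ i) (fun i _ => Nat.zero_le _)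
      (Finset.mem_univ i)

/-- **THE INTERFACE OF THE STATIC ESTIMATES** -/
theorem inp_of_sod (hm : 0 < m) (hE : Module.finrank ℝ E = m + 1)
    (hD : SOD m κ W c K q ζ η Pr)
    (hmom : ∀ p : ℕ, Integrable (fun x => (1 + ‖x‖) ^ p * rho x) κ) :
    ∃ (C₀ : ℝ) (J₀ : ℕ) (B : Fin k → Fin k → Fin k → ℝ), Inp m κ W ζ η Pr C₀ J₀ B := by
  obtain ⟨K', q', hKK, hT3, hJF⟩ := exists_unif hD
  have hT := hT3.toTubeD
  have hK := hD.tube.K_nonneg
  have hK' : 0 ≤ K' := hK.trans hKK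
  obtain ⟨C, hC, hcr⟩ := exists_crude (E := E) hE hD.tube.cpos hK' q'
  have hζ3 : ∀ i, J3 W (ζ i) c := j3_of_sod hD
  have hint : ∀ f : E → ℝ, Continuous f → PB f → Integrable (fun x => f x * rho x) κ :=
    fun f hf hfb => int_lin hD hmom hf hfb
  refine ⟨C, 5 * q' + 2, fun p r i => Phi κ W (ζ p) (ζ r) (ζ i), ⟨hC, ?_, ?_, ?_, ?_⟩⟩
  · -- quad
    intro a i
    have hζ : ∀ i, PG (ζ i) := fun i => (hζ3 i).pg
    rw [phi_lc₁ hD.tube hint hζ a (pg_lc hζ a) (hζ i)]
    refine Finset.sum_congr rfl fun p _ => ?_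
    rw [phi_rot, phi_lc₁ hD.tube hint hζ a (hζ i) (hζ p), Finset.mul_sum]
    refine Finset.sum_congr rfl fun r _ => ?_
    rw [phi_rot, phi_rot]
    ring
  · -- crude
    intro j μ T H hS
    refine (hcr W (ζ j) hT3 (hJF j) μ T H hS).trans ?_
    have h1 := DDx_mono hS hT (a := 2 * q' + 1) (b := 5 * q' + 2) (by omega)
    have h2 := TGx_mono hS hT (a := 2 * q' + 1) (b := 5 * q' + 2) (by omega)
    gcongr
  · -- fine
    intro U hc hpos hDD hdis hM a hlim j
    obtain ⟨M, hM⟩ := hM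
    have hκ := hc.lf
    have hdis0 : Tendsto (fun t : Tri E => dis t.μ t.T t.H) U (𝓝 0) := by
      have h1 := hdis.mul hDD
      rw [zero_mul] at h1
      refine h1.congr' ?_
      filter_upwards [hpos] with t ht
      exact div_mul_cancel₀ _ ht.ne'
    have hu3 : J3 W (lc ζ a) c := j3_lc hζ3 a
    have hst : ∀ X : E → E, ContDiff ℝ 1 X → PB X → PB (fderiv ℝ X) →
      ∫ x, (tr (fderiv ℝ X x) - ⟪fderiv ℝ X x (grad W x), grad W x⟫ - 1 / 2 * ⟪x, X x⟫)
        * rho x ∂κ = 0 := fun X hX h0 h1 =>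
      H923.stationary hE hc hD.tube hD.zero hdis0 hX h0 h1
    have hjac : ∀ᵐ x ∂κ, jac W (lc ζ a) x = 0 := by
      filter_upwards [hD.zero] with x hx using hu3.jac0 x hx
    obtain ⟨s1, s2⟩ := H923.hOne hm hE hc hD.dens hD.tube hD.zero hu3.cd2 hu3.b0 hu3.b1 hu3.b2
      hjac hlim hpos hDD hdis (5 * q' + 1) ⟨M, hM⟩
    set KK : ℝ := K' + (∑ i, |a i|) * K' with hKK'
    have hs : 0 ≤ ∑ i, |a i| := Finset.sum_nonneg fun i _ => abs_nonneg _
    have hle1 : K' ≤ KK := by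
      have : 0 ≤ (∑ i, |a i|) * K' := by positivity
      linarith
    have hBL : BL U m (fun t : Tri E => t.μ) (fun t => t.T) (fun t => t.H) κ W (lc ζ a) c KK q'
        (5 * q' + 1) M :=
      { dim := hE
        conv := hc
        tube := ⟨hT.monoK hle1, fun x hx => (hT3.ric2 x hx).trans
          (mul_le_mul_of_nonneg_right hle1 (by positivity))⟩
        zero := hD.zero
        ju := jf_mono (jf_lc hJF a) (by linarith)
        pos := hpos
        dd := hDD
        dis := hdis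
        mom := by
          filter_upwards [hM, hc.sl] with t ht hS
          have h1 := DDx_mono hS hT (a := 5 * q' + 1) (b := 5 * q' + 2) (by omega)
          have h2 := TGx_mono hS hT (a := 5 * q' + 1) (b := 5 * q' + 2) (by omega)
          linarith
        s1 := s1
        s2 := s2 }
    have h1 := hBL.rate_lim (jf_mono (hJF j) hle1) le_rfl
    have hint' : ∀ f : E → ℝ, Continuous f → PB f → Integrable (fun x => f x * rho x) κ := hint
    rw [QQ_eq_Phi hD.tube hD.W3 hD.Wb3 hD.zero hint' hst hu3 (hζ3 j)] at h1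
    exact h1
  · -- lim
    intro U hc hpos hDD hdis hPr
    have hBU := H923.BU.of_fixed hc hD.dens hD.tube hpos hDD hdis
    obtain ⟨v, ⟨x, y, rfl⟩, hv⟩ := exists_lim_pr hBU hPr hE
      (V := {v | ∃ (x : Fin k → ℝ) (y : Fin l → ℝ),
        v = fun p => ∑ i, x i * ζ i p + ∑ j, y j * η j p})
      (by
        rintro v ⟨x, y, rfl⟩
        exact ⟨(H588.cont_sum hD.contζ x).add (H588.cont_sum hD.contη y),
          (H588.pb_sum hD.pbζ x).add (H588.pb_sum hD.pbη y)⟩)
      (by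
        intro u hu hu2 h h'
        obtain ⟨x, y, hxy⟩ := hD.hnd u hu hu2 h h'
        exact ⟨_, ⟨x, y, rfl⟩, hxy⟩)
    refine ⟨x, y, fun f hf hfb => ?_⟩
    refine (hv f hf hfb).trans (le_of_eq ?_)
    congr 1
    refine integral_congr_ae (Eventually.of_forall fun p => ?_)
    simp only
    ring

/-- the trilinear form of second-order data -/
theorem phiQ_of_sod (hD : SOD m κ W c K q ζ η Pr)
    (hmom : ∀ p : ℕ, Integrable (fun x => (1 + ‖x‖) ^ p * rho x) κ)
    (x y z : EuclideanSpace ℝ (Fin k)) :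
    phiQ κ W ζ x y z = Phi κ W (lc ζ x) (lc ζ y) (lc ζ z) :=
  phiQ_apply hD.tube (fun f hf hfb => int_lin hD hmom hf hfb) (fun i => hD.pgζ i) x y z

end Vale.Agent.P218.SG
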