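import Vale.Agent.P218.H588.Model

/-! Second-order nondegenerate shrinkers with symmetries: the natural hypotheses. -/

open MeasureTheory Set Filter Topology
open scoped ENNReal NNReal

namespace Vale.Agent.P218.SG

open Vale.Agent.P218.H63

variable {E : Type*} [NormedAddCommGroup E] [InnerProductSpace ℝ E] [FiniteDimensional ℝ E]
  [MeasurableSpace E] [BorelSpace E]

/-- `Γ` is a set of linear isometries, `χ` a sign for each of them. The `v i` are Jacobi fields of
`S = {w = 0}`, orthonormal for the Gaussian area and orthogonal to the infinitesimal rotations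
commuting with `Γ`, and every square integrable Jacobi field `u` with `u ∘ g = χ(g) u` for
`g ∈ Γ` is a combination of the `v i` and of such a rotation; the `v i` are extended to `C³`
functions on `E`, constant along the normals in the tube `{|w| < δ}`, whose derivatives up to
order three have polynomial growth. -/
structure IsEquivariantJacobiBasis (m : ℕ) (S : Set E) (w : E → ℝ) (δ C : ℝ) (q : ℕ)
    (Γ : Set (E ≃ₗᵢ[ℝ] E)) (χ : (E ≃ₗᵢ[ℝ] E) → ℝ) {k : ℕ} (v : Fin k → E → ℝ) : Prop where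
  smooth : ∀ i, ContDiff ℝ 3 (v i)
  growth : ∀ i x, ∀ n ≤ 3, ‖iteratedFDeriv ℝ n (v i) x‖ ≤ C * (1 + ‖x‖) ^ q
  normal : ∀ i x, |w x| < δ → inner ℝ (gradient (v i) x) (gradient w x) = 0
  jacobi : ∀ i, ∀ x ∈ S, stab w (v i) x = 0
  orthonormal : ∀ i j, ∫ x, v i x * v j x ∂(gaussArea m S) = if i = j then 1 else 0
  rotation : ∀ i, ∀ A : E →L[ℝ] E, (∀ x, inner ℝ (A x) x = 0) →
    (∀ g ∈ Γ, ∀ x, A (g x) = g (A x)) →
    ∫ x, v i x * inner ℝ (A x) (gradient w x) ∂(gaussArea m S) = 0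
  span : ∀ u : E → ℝ, IsJacobiField m S w u →
    (∀ g ∈ Γ, ∀ᵐ x ∂(gaussArea m S), u (g x) = χ g * u x) →
    ∃ (a : Fin k → ℝ) (A : E →L[ℝ] E), (∀ x, inner ℝ (A x) x = 0) ∧
      (∀ g ∈ Γ, ∀ x, A (g x) = g (A x)) ∧
      u =ᵐ[gaussArea m S] fun x => ∑ i, a i * v i x + inner ℝ (A x) (gradient w x)

end Vale.Agent.P218.SG
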