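import Vale.Agent.P218.H969.NatAll
import Vale.Agent.P218.H333.SG.Model
import Vale.Agent.P218.H333.SG.Stat
import Vale.Agent.P218.H333.EqMain
import Vale.Agent.P218.H333.SG.TubeG

/-! The natural hypotheses give the second-order data, equivariant version. -/

open MeasureTheory Set Filter Topology Metric
open scoped ENNReal NNReal RealInnerProductSpace

namespace Vale.Agent.P218.SG

open Vale.Agent.P218.H313
open Vale.Agent.P218.H63 (IsTubeShrinker IsJacobiField gaussArea stab hessSq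
  integral_gaussArea gaussArea_ac ac_gaussArea integrable_gaussArea)
open Vale.Agent.P218.H588 (cubicForm SecondOrderNondegenerate Phi lc)
open Vale.Agent.P218.H969 (norm_grad_eq_iter norm_hess_eq_iter norm_third_eq_iter)
open Vale.Agent.P218.H333 (skewC skewC_le)

set_option linter.unusedSectionVars false
set_option linter.unusedVariables false

variable {E : Type*} [NormedAddCommGroup E] [InnerProductSpace ℝ E] [FiniteDimensional ℝ E]
variable [MeasurableSpace E] [BorelSpace E]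
variable {m : ℕ} {S : Set E} {w W : E → ℝ} {δ C c K : ℝ} {q k l : ℕ} {v : Fin k → E → ℝ}
  {Γ : Set (E ≃ₗᵢ[ℝ] E)} {χ : (E ≃ₗᵢ[ℝ] E) → ℝ}

/-- equivariance -/
def EqPr (κ : Measure E) (Γ : Set (E ≃ₗᵢ[ℝ] E)) (χ : (E ≃ₗᵢ[ℝ] E) → ℝ) (u : E → ℝ) : Prop :=
  ∀ g ∈ Γ, ∀ᵐ x ∂κ, u (g x) = χ g * u x

/-- **the natural hypotheses give the second-order data** -/
theorem sod_of_basis (hE : Module.finrank ℝ E = m + 1) (hS : IsTubeShrinker S w δ C)
    (hW : TubeD W c K) (hWS : ∀ x, W x = 0 ↔ x ∈ S) (hcδ : c < δ)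
    (hsm : ∀ x, |W x| < c → |w x| < c)
    (hg : ∀ x, |w x| < c → grad W x = gradient w x)
    (hH : ∀ x, |w x| < c → fderiv ℝ (grad W) x = fderiv ℝ (gradient w) x)
    (hW3 : ContDiff ℝ 3 W) (hWb3 : PB (fderiv ℝ (fderiv ℝ (grad W))))
    {C' : ℝ} (hv : IsEquivariantJacobiBasis m S w δ C' q Γ χ v) (hnd : SecondOrderNondegenerate m S w v)
    {b : Fin l → E →L[ℝ] E} (hb : ∀ j, b j ∈ skewC Γ)
    (hspan : ∀ A ∈ skewC Γ, ∃ y : Fin l → ℝ, ∀ᵐ x ∂(μH[m] : Measure E).restrict S,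
      ⟪A x, grad W x⟫ = ∑ j, y j * ⟪b j x, grad W x⟫) :
    ∃ (K' : ℝ) (q' : ℕ), SOD m ((μH[m] : Measure E).restrict S) W c K' q' v
      (fun j x => ⟪b j x, grad W x⟫) (EqPr ((μH[m] : Measure E).restrict S) Γ χ) := by
  have hSe : {x | W x = 0} = S := by ext x; exact hWS x
  have hSm : MeasurableSet S := by
    rw [← hSe]; exact (isClosed_eq hW.cont continuous_const).measurableSet
  have hsmall : ∀ x ∈ S, |w x| < c := fun x hx => by
    rw [(hS.mem_iff x).1 hx, abs_zero]; exact hW.cpos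
  have hK := hW.K_nonneg
  have hjac : ∀ ζ : E → ℝ, ∀ x ∈ S, jac W ζ x = H63.stab w ζ x := by
    intro ζ x hx
    have h1 := hg x (hsmall x hx)
    have h2 := hH x (hsmall x hx)
    unfold jac H63.stab H63.lap hessSq H313.tr
    rw [h1, h2, H313.grad_eq_gradient]
    ring
  have hη : ∀ j x, ⟪b j x, grad W x⟫ = ⟪grad W ((1 : E →L[ℝ] E) x), b j x⟫ := by
    intro j x
    rw [real_inner_comm]; rfl
  have hηf : ∀ j, (fun x => ⟪b j x, grad W x⟫) = fun x => ⟪grad W ((1 : E →L[ℝ] E) x), b j x⟫ :=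
    fun j => funext (hη j)
  set B : ℝ := K * ∑ j, ‖b j‖ with hB
  have hB0 : 0 ≤ B := mul_nonneg hK (Finset.sum_nonneg fun j _ => norm_nonneg _)
  have hBj : ∀ j, K * ‖b j‖ ≤ B := fun j =>
    mul_le_mul_of_nonneg_left (Finset.single_le_sum (f := fun j => ‖b j‖)
      (fun i _ => norm_nonneg _) (Finset.mem_univ j)) hK
  set K' : ℝ := K + |C'| + B with hK'
  have hC0 := abs_nonneg C'
  have hv2 : ∀ i, ContDiff ℝ 2 (v i) := fun i => (hv.smooth i).of_le (by norm_num)
  have hgr : ∀ i x, ∀ n ≤ 3, ‖iteratedFDeriv ℝ n (v i) x‖ ≤ K' * (1 + ‖x‖) ^ q := by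
    intro i x n hn
    refine (hv.growth i x n hn).trans ?_
    have h1 : C' ≤ K' := by
      have := le_abs_self C'
      rw [hK']; linarith
    have h2 : 0 ≤ (1 + ‖x‖) ^ q := by positivity
    exact mul_le_mul_of_nonneg_right h1 h2
  have hK'0 : 0 ≤ K' := by positivity
  refine ⟨K', q, ?_⟩
  refine
    { tube := hW.mono (by rw [hK']; linarith)
      W3 := hW3
      Wb3 := hWb3
      dens := fun x b hb => ?_
      zero := ?_
      cd := hv.smooth
      b0 := fun i x => ?_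
      b1 := fun i x => ?_
      b2 := fun i x => (norm_hess_eq_iter (hv2 i) x).le.trans (hgr i x 2 (by norm_num))
      b3 := fun i => ⟨K', q, hK'0, fun x => (norm_third_eq_iter (hv.smooth i) x).le.trans
        (hgr i x 3 le_rfl)⟩
      perp := fun i x hx => ?_
      jac0 := fun i x hx => ?_
      ηcd := fun j => ?_
      η0 := fun j x => ?_
      η1 := fun j x => ?_
      on := fun i j => ?_
      orth := fun i j => ?_
      hnd := fun u hu hu2 hweak huΓ => ?_
      nd := fun a ha => ?_ }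
  · have := density_le (m := m) hE hW x hb
    rw [hSe] at this
    exact this
  · filter_upwards [ae_restrict_mem hSm] with x hx
    exact (hWS x).2 hx
  · have := hgr i x 0 (by norm_num)
    rwa [norm_iteratedFDeriv_zero, Real.norm_eq_abs] at this
  · rw [norm_grad_eq_iter]
    exact hgr i x 1 (by norm_num)
  · have h1 := hsm x hx
    rw [hg x h1]
    exact hv.normal i x (h1.trans hcδ)
  · have h1 := (hWS x).1 hx
    rw [hjac _ x h1]
    exact hv.jacobi i x h1
  · rw [hηf]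
    exact contDiff_inner_grad hW 1 (b j)
  · have h1 : |⟪b j x, grad W x⟫| ≤ (‖b j‖ * ‖x‖) * K :=
      (abs_real_inner_le_norm _ _).trans (mul_le_mul ((b j).le_opNorm x) (hW.b1 x)
        (norm_nonneg _) (by positivity))
    refine h1.trans ?_
    have h2 := hBj j
    have h3 : K * ‖b j‖ ≤ K' := h2.trans (by rw [hK']; linarith)
    have h4 := norm_nonneg x
    calc ‖b j‖ * ‖x‖ * K = (K * ‖b j‖) * ‖x‖ := by ring
      _ ≤ K' * (1 + ‖x‖) := mul_le_mul h3 (by linarith) h4 hK'0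
  · rw [hηf]
    have h1 := norm_grad_inner_grad_le hW (Q := 1) (B := b j) (β := ‖b j‖) (fun y => rfl)
      (norm_nonneg _) (fun y => (b j).le_opNorm y) x
    refine h1.trans ?_
    have h3 : K * ‖b j‖ ≤ K' := (hBj j).trans (by rw [hK']; linarith)
    have h4 := norm_nonneg x
    exact mul_le_mul_of_nonneg_right h3 (by linarith)
  · have h1 := hv.orthonormal i j
    rw [integral_gaussArea] at h1
    exact h1
  · have h1 := hv.rotation i (b j) (hb j).1 (hb j).2
    rw [integral_gaussArea] at h1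
    rw [← h1]
    refine integral_congr_ae ((ae_restrict_mem hSm).mono fun x hx => ?_)
    simp only
    rw [hg x (hsmall x hx)]
  · have hJ : IsJacobiField m S w u := by
      refine ⟨(memLp_two_iff_integrable_sq (hu.mono_ac gaussArea_ac)).2
        (integrable_gaussArea hu2), fun η hη hηc => ?_⟩
      rw [integral_gaussArea, ← hweak η hη hηc]
      refine integral_congr_ae ((ae_restrict_mem hSm).mono fun x hx => ?_)
      simp only
      rw [hjac η x hx]
    obtain ⟨a, A, hA, hAΓ, hAu⟩ := hv.span u hJ fun g hg => gaussArea_ac.ae_le (huΓ g hg)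
    obtain ⟨y, hy⟩ := hspan A ⟨hA, hAΓ⟩
    refine ⟨a, y, ?_⟩
    have h1 : u =ᵐ[(μH[m] : Measure E).restrict S]
        fun x => ∑ i, a i * v i x + ⟪A x, gradient w x⟫ := ac_gaussArea.ae_eq hAu
    filter_upwards [h1, hy, ae_restrict_mem hSm] with x hx hyx hxS
    rw [hx, ← hyx, hg x (hsmall x hxS)]
  · have h1 := hnd (fun j => a j) fun i => ?_
    · ext j
      exact congrFun h1 j
    · rw [← ha i]
      unfold cubicForm Phi
      rw [integral_gaussArea]
      refine integral_congr_ae ((ae_restrict_mem hSm).mono fun x hx => ?_)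
      simp only
      rw [hH x (hsmall x hx)]
      rfl

/-- the same with the velocities of the Cayley family, `b` a basis of a space `M'` of skew
operators containing all the rotation fields -/
theorem sod_of (hE : Module.finrank ℝ E = m + 1) (hS : IsTubeShrinker S w δ C)
    (hW : TubeD W c K) (hWS : ∀ x, W x = 0 ↔ x ∈ S) (hcδ : c < δ)
    (hsm : ∀ x, |W x| < c → |w x| < c)
    (hg : ∀ x, |w x| < c → grad W x = gradient w x)
    (hH : ∀ x, |w x| < c → fderiv ℝ (grad W) x = fderiv ℝ (gradient w) x)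
    (hW3 : ContDiff ℝ 3 W) (hWb3 : PB (fderiv ℝ (fderiv ℝ (grad W))))
    {C' : ℝ} (hv : IsEquivariantJacobiBasis m S w δ C' q Γ χ v) (hnd : SecondOrderNondegenerate m S w v)
    {M' : Submodule ℝ (E →L[ℝ] E)} (hM' : M' ≤ skewC Γ) (b : Module.Basis (Fin l) ℝ M')
    (hspan : ∀ A ∈ skewC Γ, ∃ B ∈ M', ∀ᵐ x ∂(μH[m] : Measure E).restrict S,
      ⟪A x, grad W x⟫ = ⟪B x, grad W x⟫) :
    ∃ (K' : ℝ) (q' : ℕ), SOD m ((μH[m] : Measure E).restrict S) W c K' q' v
      (fun j x => -2 * ⟪grad W x, (b j : E →L[ℝ] E) x⟫)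
      (EqPr ((μH[m] : Measure E).restrict S) Γ χ) := by
  have h := sod_of_basis (l := l) hE hS hW hWS hcδ hsm hg hH hW3 hWb3 hv hnd
    (b := fun j => (-2 : ℝ) • (b j : E →L[ℝ] E)) (fun j => (skewC Γ).smul_mem _ (hM' (b j).2))
    fun A hA => ?_
  · have e : (fun (j : Fin l) x => ⟪((-2 : ℝ) • (b j : E →L[ℝ] E)) x, grad W x⟫)
        = fun (j : Fin l) x => -2 * ⟪grad W x, (b j : E →L[ℝ] E) x⟫ := by
      funext j x
      rw [smul_apply, real_inner_smul_left, real_inner_comm]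
    rw [e] at h
    exact h
  · obtain ⟨B, hB, hAB⟩ := hspan A hA
    refine ⟨fun j => -(1 / 2) * b.repr ⟨B, hB⟩ j, ?_⟩
    filter_upwards [hAB] with x hx
    rw [hx]
    have h1 : B = ∑ j, b.repr ⟨B, hB⟩ j • (b j : E →L[ℝ] E) := by
      have h2 := congrArg (fun z : M' => (z : E →L[ℝ] E)) (b.sum_repr ⟨B, hB⟩)
      simp only [Submodule.coe_sum, Submodule.coe_smul] at h2
      exact h2.symm
    have h3 : ⟪B x, grad W x⟫ = ∑ j, b.repr ⟨B, hB⟩ j * ⟪(b j : E →L[ℝ] E) x, grad W x⟫ := by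
      conv_lhs => rw [h1]
      rw [sum_apply, sum_inner]
      refine Finset.sum_congr rfl fun j _ => ?_
      rw [smul_apply, real_inner_smul_left]
    rw [h3]
    refine Finset.sum_congr rfl fun j _ => ?_
    rw [smul_apply, real_inner_smul_left]
    ring

/-- a complement of the stabiliser -/
theorem exists_compl (κ : Measure E) (W : E → ℝ) (Γ : Set (E ≃ₗᵢ[ℝ] E)) :
    ∃ M' : Submodule ℝ (E →L[ℝ] E), M' ≤ skewC Γ ∧
      (∀ A ∈ skewC Γ, ∃ B ∈ M', ∀ᵐ x ∂κ, ⟪A x, grad W x⟫ = ⟪B x, grad W x⟫) ∧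
      ∀ B ∈ M', (∀ᵐ x ∂κ, ⟪B x, grad W x⟫ = 0) → B = 0 := by
  let st : Submodule ℝ (E →L[ℝ] E) :=
    { carrier := {A | A ∈ skewC Γ ∧ ∀ᵐ x ∂κ, ⟪A x, grad W x⟫ = 0}
      add_mem' := by
        rintro A B ⟨hA, hA'⟩ ⟨hB, hB'⟩
        refine ⟨(skewC Γ).add_mem hA hB, ?_⟩
        filter_upwards [hA', hB'] with x h1 h2
        rw [add_apply, inner_add_left, h1, h2, add_zero]
      zero_mem' := ⟨(skewC Γ).zero_mem, Eventually.of_forall fun x => by simp⟩
      smul_mem' := by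
        rintro k A ⟨hA, hA'⟩
        refine ⟨(skewC Γ).smul_mem k hA, ?_⟩
        filter_upwards [hA'] with x h1
        rw [smul_apply, real_inner_smul_left, h1, mul_zero] }
  have hst : st ≤ skewC Γ := fun A hA => hA.1
  obtain ⟨Q, hQ⟩ := exists_isCompl st
  have hsum : st ⊔ (Q ⊓ skewC Γ) = skewC Γ := by
    rw [← sup_inf_assoc_of_le Q hst, hQ.sup_eq_top, top_inf_eq]
  refine ⟨Q ⊓ skewC Γ, inf_le_right, fun A hA => ?_, fun B hB hB0 => ?_⟩
  · rw [← hsum] at hA
    obtain ⟨s, hs, B, hB, rfl⟩ := Submodule.mem_sup.1 hA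
    refine ⟨B, hB, ?_⟩
    filter_upwards [hs.2] with x h5
    rw [add_apply, inner_add_left, h5, zero_add]
  · have h1 : B ∈ st ⊓ Q := ⟨⟨hB.2, hB0⟩, hB.1⟩
    rwa [hQ.inf_eq_bot, Submodule.mem_bot] at h1

/-- **all the second-order data from the natural hypotheses** -/
theorem exists_sod (hE : Module.finrank ℝ E = m + 1) (hS : IsTubeShrinker S w δ C)
    (h3 : ∀ x, |w x| < δ → ‖fderiv ℝ (fderiv ℝ (gradient w)) x‖ ≤ C * (1 + ‖x‖) ^ q)
    {C' : ℝ} {q₁ : ℕ} (hv : IsEquivariantJacobiBasis m S w δ C' q₁ Γ χ v)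
    (hnd : SecondOrderNondegenerate m S w v) :
    ∃ (W : E → ℝ) (c K : ℝ) (q' : ℕ) (M' : Submodule ℝ (E →L[ℝ] E)) (l : ℕ)
      (b : Module.Basis (Fin l) ℝ M'), TubeD W c K ∧ M' ≤ skewC Γ ∧ {x | W x = 0} = S ∧
      (∀ B : M', (∀ᵐ x ∂(μH[m] : Measure E).restrict S, ⟪grad W x, (B : E →L[ℝ] E) x⟫ = 0)
        → B = 0) ∧
      SOD m ((μH[m] : Measure E).restrict S) W c K q' v
        (fun j x => -2 * ⟪grad W x, (b j : E →L[ℝ] E) x⟫)
        (EqPr ((μH[m] : Measure E).restrict S) Γ χ) ∧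
      ∃ (α : ℝ) (hα : 0 < α), ∀ x, W x = H63.Theta α hα (w x) := by
  obtain ⟨W, c, K, hW, hWS, hcδ, hnear, hsm, hg, hH, hW3, hWb3, hθ⟩ := exists_tubeD3_theta hS h3
  obtain ⟨M', hM', hspan, hinj⟩ := exists_compl ((μH[m] : Measure E).restrict S) W Γ
  let b := Module.finBasis ℝ M'
  obtain ⟨K', q', h⟩ := sod_of hE hS hW hWS hcδ hsm hg hH hW3 hWb3 hv hnd hM' b hspan
  refine ⟨W, c, K', q', M', _, b, h.tube, hM', by ext x; exact hWS x, fun B hB => ?_, h, hθ⟩
  refine Subtype.ext (hinj B B.2 ?_)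
  filter_upwards [hB] with x hx
  rw [real_inner_comm]; exact hx

end Vale.Agent.P218.SG
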