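import Vale.Agent.P218.H588.Fin
import Vale.Agent.P218.H333.SG.InpG
import Vale.Agent.P218.H333.SG.InstG
import Vale.Agent.P218.H333.SG.NatG

/-! Second-order nondegenerate shrinkers with symmetries: uniqueness of tangent flows. -/

open MeasureTheory Set Filter Topology Metric
open scoped ENNReal NNReal RealInnerProductSpace CompactlySupported

namespace Vale.Agent.P218.SG

open Vale.Agent.P218.H63 (IsTubeShrinker IsJacobiField gaussArea)
open Vale.Agent.P218.H313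
open Vale.Agent.P218.H552 (BF NN)
open Vale.Agent.P218.H588 (Tri nearS Phi lc co rsq SecondOrderNondegenerate mom_of_slice)
open Vale.Agent.P218.H969 (rotTri cayE cayE_apply tendsto_rot_nearS)
open Vale.Agent.P218.H333 (LimPr limPr_equiv NN_map skewC skewC_le cay_comm Theta_neg)

set_option linter.unusedSectionVars false
set_option linter.unusedVariables false

variable {E : Type*} [NormedAddCommGroup E] [InnerProductSpace ℝ E] [FiniteDimensional ℝ E]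
  [MeasurableSpace E] [BorelSpace E]

section fam

variable {P : Type*} [NormedAddCommGroup P] [NormedSpace ℝ P]
variable {m k : ℕ} {r c K K' : ℝ} {q q' : ℕ}
  {V : P → E → ℝ} {V' : P → P →ₗ[ℝ] (E → ℝ)} {Z : P → LS k →ₗ[ℝ] (E → ℝ)}
  {Q : LS k →ₗ[ℝ] LS k →ₗ[ℝ] LS k →ₗ[ℝ] ℝ}

/-- **Uniqueness of the tangent flow**, second order version: the family `V a` together with the
`Z a l` contains all the Jacobi fields, the cubic form is nondegenerate in the directions `Z`. -/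
theorem fam_unique2_eq [FiniteDimensional ℝ P] (hm : 0 < m) (hE : Module.finrank ℝ E = m + 1)
    (hF : Fam m V V' r c K q) (hK' : 0 ≤ K') {μ : ℝ → Measure E} (hμ : IsIntegralBrakkeFlow m μ)
    (h0 : μ 0 univ < ⊤) (x₀ : E) {t₀ : ℝ} (ht : 0 < t₀)
    (hκ : (μH[m] : Measure E).restrict {x | V 0 x = 0} ∈ tangentSlices m μ x₀ t₀)
    {Γ : Set (E ≃ₗᵢ[ℝ] E)}
    (hμΓ : ∀ g ∈ Γ, ∀ᶠ t in 𝓝[<] t₀, (μ t).map (fun x => x₀ + g (x - x₀)) = μ t)
    (hinj : ∀ b : P, (∀ᵐ x ∂(μH[m] : Measure E).restrict {x | V 0 x = 0}, V' 0 b x = 0) → b = 0)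
    (hZ : Sec k V' Z Q ((μH[m] : Measure E).restrict {x | V 0 x = 0}) r K' q')
    (hrf : ∀ (N : ℝ → Measure E) (T : ℝ → E → Submodule ℝ E) (H : ℝ → E → E) (s₀ : ℝ),
      RF m N T H s₀ → (∀ g ∈ Γ, ∀ᶠ s in atTop, (N s).map g = N s) →
      IsLocallyFiniteMeasure ((μH[m] : Measure E).restrict {x | V 0 x = 0}) →
      ∃ (J : ℕ) (δ : ℝ), DynP m N T H s₀ c K q' J δ ∧ TgBd m N T H s₀ c K J ∧
        St m k N T H V V' Z Q ((μH[m] : Measure E).restrict {x | V 0 x = 0}) J) :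
    TangentFlowUnique m μ x₀ t₀ := by
  obtain ⟨T, H, s₀, hRF⟩ := exists_RF hμ h0 x₀ ht
  obtain ⟨T', H', hB, -⟩ := A1.exists_BF_slice hμ
  have hslow := H552.slow_NN hB h0 x₀ ht
  set κ := (μH[m] : Measure E).restrict {x | V 0 x = 0} with hκd
  rw [H552.tangentSlices_eq hB h0 x₀ ht] at hκ
  rw [unique_iff hB h0 x₀ ht, H552.tangentSlices_eq hB h0 x₀ ht]
  obtain ⟨hlf, τ, hτ, hτκ⟩ := hκ
  have hWt := hF.tube 0 (by simpa using hF.rpos.le)
  set s₁ := max s₀ (2 * H552.tau0 t₀) with hs₁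
  have hslow' : Slow (fun s => NN m μ x₀ t₀ (s / 2)) s₁ := by
    constructor
    · intro K hK
      obtain ⟨C, hC⟩ := hslow.bdd K hK
      refine ⟨C, fun τ hτ => hC _ ?_⟩
      have := (le_max_right s₀ (2 * H552.tau0 t₀)).trans hτ
      linarith
    · intro φ hφ hφc h hh ε hε
      obtain ⟨S, hS0, hS⟩ := hslow.slow φ hφ hφc (h / 2) (half_pos hh) ε hε
      refine ⟨max s₁ (2 * S), le_max_left _ _, fun τ τ' h1 h2 h3 => hS _ _ ?_ ?_ ?_⟩
      · have := (le_max_right s₁ (2 * S)).trans h1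
        linarith
      · linarith
      · linarith
  have hseq : ∃ τ : ℕ → ℝ, Tendsto τ atTop atTop ∧
      WeakTendsto (fun i => NN m μ x₀ t₀ (τ i / 2)) κ := by
    refine ⟨fun i => 2 * τ i, hτ.const_mul_atTop two_pos, ?_⟩
    have e : ∀ i, 2 * τ i / 2 = τ i := fun i => by ring
    simp_rw [e]
    exact hτκ
  have hV0 : ∀ᵐ x ∂κ, V 0 x = 0 := by
    rw [hκd]
    exact ae_restrict_mem (isClosed_eq hWt.cont continuous_const).measurableSet
  have hRF' := hRF.later (le_max_left s₀ (2 * H552.tau0 t₀))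
  obtain ⟨J, δ, hdyn, htg, hSt⟩ := hrf _ T H s₁ hRF' (fun g hg => NN_map (hμΓ g hg)) hlf
  refine limitSet_subsingleton hslow fun φ hφ hφc => ?_
  obtain ⟨L, hL⟩ := hRF'.converge2 hm hE hslow' hF hZ hK' hSt hdyn htg hV0 hseq hinj hφ hφc
  refine ⟨L, ?_⟩
  have h2 := hL.comp (tendsto_id.const_mul_atTop (two_pos : (0 : ℝ) < 2))
  refine h2.congr fun τ => ?_
  simp only [Function.comp, id]
  have e : 2 * τ / 2 = τ := by ring
  rw [e]

end fam

variable {m k : ℕ} {S : Set E} {w : E → ℝ} {δ C : ℝ} {q : ℕ} {v : Fin k → E → ℝ}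
  {Γ : Set (E ≃ₗᵢ[ℝ] E)} {χ : (E ≃ₗᵢ[ℝ] E) → ℝ} {κ : Measure E}

/-- invariant slices near `κ` -/
noncomputable def nearG (m : ℕ) (κ : Measure E) (CM : ℕ → ℝ) (CR : ℝ)
    (Γ : Set (E ≃ₗᵢ[ℝ] E)) : Filter (Tri E) :=
  nearS m κ CM CR ⊓ ⨅ g ∈ Γ, 𝓟 {t : Tri E | t.μ.map g = t.μ}

lemma nearG_le {CM : ℕ → ℝ} {CR : ℝ} : nearG m κ CM CR Γ ≤ nearS m κ CM CR := inf_le_left

lemma nearG_inv {CM : ℕ → ℝ} {CR : ℝ} {g : E ≃ₗᵢ[ℝ] E} (hg : g ∈ Γ) :
    ∀ᶠ t in nearG m κ CM CR Γ, t.μ.map g = t.μ := by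
  have : nearG m κ CM CR Γ ≤ 𝓟 {t : Tri E | t.μ.map g = t.μ} :=
    inf_le_right.trans ((iInf_le _ g).trans (iInf_le _ hg))
  exact this (mem_principal_self _)

lemma limPr_near {CM : ℕ → ℝ} {CR : ℝ} {W : E → ℝ} (hχ : ∀ g ∈ Γ, χ g * χ g = 1)
    (hκ : ∀ g ∈ Γ, κ.map g = κ) (hW : ∀ g ∈ Γ, ∀ x, W (g x) = χ g * W x)
    (U : Ultrafilter (Tri E)) (hU : (U : Filter (Tri E)) ≤ nearG m κ CM CR Γ) :
    LimPr U (fun t : Tri E => t.μ) κ (fun _ => W) (EqPr κ Γ χ) := by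
  intro u hu hu2 hlim g hg
  exact limPr_equiv (hχ g hg) (hU (nearG_inv hg)) (Eventually.of_forall fun _ => hW g hg)
    (hκ g hg) u hu hu2 hlim

lemma rot_map {μ : Measure E} {g : E ≃ₗᵢ[ℝ] E} (h : μ.map g = μ) {A : E →L[ℝ] E}
    (hA : A ∈ skew E) (hc : ∀ x, A (g x) = g (A x)) :
    (H588.rM (cayE A) μ).map g = H588.rM (cayE A) μ := by
  have e1 : (μ.map (cayE A)).map g = (μ.map g).map (cayE A) := by
    rw [Measure.map_map g.continuous.measurable (cayE A).continuous.measurable,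
      Measure.map_map (cayE A).continuous.measurable g.continuous.measurable]
    congr 1
    ext x
    simp only [Function.comp]
    rw [cayE_apply hA, cayE_apply hA, cay_comm hA hc]
  rw [h] at e1
  exact e1

/-- **slices of the flow, rotated by small Cayley rotations commuting with `Γ`** -/
theorem tendsto_rot_nearG {N : ℝ → Measure E} {T : ℝ → E → Submodule ℝ E} {H : ℝ → E → E}
    {s₀ : ℝ} (h : RF m N T H s₀) (hinv : ∀ g ∈ Γ, ∀ᶠ s in atTop, (N s).map g = N s)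
    (κ : Measure E) {M' : Submodule ℝ (E →L[ℝ] E)} (hM' : M' ≤ skewC Γ) :
    ∃ (CM : ℕ → ℝ) (CR : ℝ), Tendsto
      (fun p : ℝ × M' => rotTri (cayE (p.2 : E →L[ℝ] E)) (⟨N p.1, T p.1, H p.1⟩ : Tri E))
      (nearF m N T H κ ×ˢ 𝓝 0) (nearG m κ CM CR Γ) := by
  obtain ⟨CM, CR, h1⟩ := tendsto_rot_nearS h κ M'
  refine ⟨CM, CR, tendsto_inf.2 ⟨h1, tendsto_iInf.2 fun g => tendsto_iInf.2 fun hg =>
    tendsto_principal.2 ?_⟩⟩
  have e1 : ∀ᶠ p : ℝ × M' in nearF m N T H κ ×ˢ 𝓝 (0 : M'), (N p.1).map g = N p.1 :=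
    tendsto_fst.eventually (nearF_atTop (hinv g hg))
  filter_upwards [e1] with p hp
  exact rot_map hp (hM' p.2.2).1 fun x => (hM' p.2.2).2 g hg x

/-- **Uniqueness of the tangent flow** at a point where some tangent flow is a self-shrinker with
multiplicity one, a uniform tubular neighbourhood, and whose Jacobi fields are, modulo the
rotations, obstructed to second order. -/
theorem unique_of_second_order_eq (hm : 0 < m) (hE : Module.finrank ℝ E = m + 1)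
    (hS : IsTubeShrinker S w δ C)
    (h3 : ∀ x, |w x| < δ → ‖fderiv ℝ (fderiv ℝ (gradient w)) x‖ ≤ C * (1 + ‖x‖) ^ q)
    (hv : IsEquivariantJacobiBasis m S w δ C q Γ χ v) (hnd : SecondOrderNondegenerate m S w v)
    (hχ : ∀ g ∈ Γ, χ g = 1 ∨ χ g = -1) (hwΓ : ∀ g ∈ Γ, ∀ x, w (g x) = χ g * w x)
    {μ : ℝ → Measure E} (hμ : IsIntegralBrakkeFlow m μ) (h0 : μ 0 univ < ⊤) (x₀ : E) {t₀ : ℝ}
    (ht : 0 < t₀)
    (hμΓ : ∀ g ∈ Γ, ∀ᶠ t in 𝓝[<] t₀, (μ t).map (fun x => x₀ + g (x - x₀)) = μ t)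
    (hκ : (μH[m] : Measure E).restrict S ∈ tangentSlices m μ x₀ t₀) :
    TangentFlowUnique m μ x₀ t₀ := by
  obtain ⟨W, c, K, q', M', l, b, hW, hM'', hWS, hinj, hD, α, hα, hθ⟩ := exists_sod hE hS h3 hv hnd
  subst hWS
  have hM' : M' ≤ skew E := hM''.trans (skewC_le Γ)
  have hχ2 : ∀ g ∈ Γ, χ g * χ g = 1 := by
    intro g hg
    rcases hχ g hg with h | h <;> rw [h] <;> norm_num
  have hWΓ : ∀ g ∈ Γ, ∀ x, W (g x) = χ g * W x := by
    intro g hg x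
    rw [hθ, hθ, hwΓ g hg]
    rcases hχ g hg with h | h
    · rw [h, one_mul, one_mul]
    · rw [h, neg_one_mul, neg_one_mul, Theta_neg]
  have hκΓ : ∀ g ∈ Γ, ((μH[m] : Measure E).restrict {x | W x = 0}).map g
      = (μH[m] : Measure E).restrict {x | W x = 0} := fun g hg =>
    map_eq_of_mem_tangentSlices (hμΓ g hg) hκ
  obtain ⟨r, K₁, q₁, V', hF, hV'⟩ := cayFam hE hW M' hM'
  have hmom := mom_of_slice hμ h0 x₀ ht hκ
  obtain ⟨C₀, J₀, B, hI⟩ := inp_of_sod hm hE hD hmom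
  have hQ := phiQ_of_sod hD hmom
  have hη : ∀ (j : Fin l) (x : E),
      (fun (j : Fin l) (x : E) => -2 * ⟪grad W x, (b j : E →L[ℝ] E) x⟫) j x = V' 0 (b j) x :=
    fun j x => (hV' (b j) x).symm
  have hV0 : ∀ x, W (cay ((0 : M') : E →L[ℝ] E) x) = W x := by
    intro x
    simp [cay_zero]
  have hset : {x : E | W (cay ((0 : M') : E →L[ℝ] E) x) = 0} = {x | W x = 0} := by
    ext x; simp only [mem_setOf_eq, hV0]
  have hZ := sec_of_sod hM' hD hmom b hη hQ r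
  have hkK : (0 : ℝ) ≤ 2 * (k * K) := by
    have := hW.K_nonneg
    positivity
  have hc := hW.cpos
  have hK₁ : 0 ≤ K₁ := (hF.tube 0 (by simpa using hF.rpos.le)).K_nonneg
  refine fam_unique2_eq (k := k) (Z := H923.cayZ v M')
    (Q := X8.phiQ ((μH[m] : Measure E).restrict {x | W x = 0}) W v) (q' := q' + 1)
    hm hE hF hkK hμ h0 x₀ ht ?_ hμΓ ?_ ?_ ?_
  · rw [hset]; exact hκ
  · intro B hB
    rw [hset] at hB
    refine hinj B ?_
    filter_upwards [hB] with x hx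
    rw [hV'] at hx
    linarith
  · rw [hset]; exact hZ
  · intro N T H s₀ hRF hinv hlf
    rw [hset] at hlf ⊢
    obtain ⟨CM, CR, hpull⟩ := tendsto_rot_nearG hRF hinv
      ((μH[m] : Measure E).restrict {x | W x = 0}) hM''
    have hPr := limPr_near (m := m) (CM := CM) (CR := CR) hχ2 hκΓ hWΓ
    obtain ⟨J₁, hSt⟩ := st_of_sod hRF hM' hD hF b hη hQ hpull
      ⟨J₀ + 1, static_rate hm hE hD hI nearG_le hPr⟩
      (static_coer hm hE hD nearG_le hPr)
      ⟨J₀ + 1, static_co hm hE hD hI nearG_le hPr⟩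
    obtain ⟨δ', hdyn⟩ := H969.dynP_of_RF hRF hE hc hK₁ (q' + 1) J₁
    exact ⟨J₁, δ', hdyn, H969.tg_bd hRF hE hc hK₁ J₁, hSt J₁ le_rfl⟩

end Vale.Agent.P218.SG
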